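import Crest.Agent.R332.Defs
import Crest.Agent.Lib.Riccati.Flow
import Crest.Agent.Lib.Brouwer.Basic

/-!
Existence of a fully critical solution of the matrix Riccati equation `S' = K² - S² - V` running
from `K` to `-K`, where the potential `V = Vf K` may depend continuously on `K` (Brouwer's theorem
applied to a cut-off equation).
-/

set_option autoImplicit false
set_option linter.unusedSectionVars false

namespace Crest.Agent.Lib.Riccati

open Matrix Crest.Agent.Lib.QEnt Crest.Agent.R332 Filter Topology MeasureTheory Set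
open scoped ComplexOrder Matrix.Norms.Frobenius NNReal

variable {n : Type} [Fintype n] [DecidableEq n]

theorem psd_of_tr {Z : Matrix n n ℂ} (hZ : Z.IsHermitian)
    (h : ∀ P : Matrix n n ℂ, P.PosSemidef → 0 ≤ tr (P * Z)) : Z.PosSemidef := by
  obtain ⟨V, z, hz⟩ := exists_isDiag hZ
  refine isDiag_psd hz fun i => ?_
  have hP : IsDiag (V * diagonal (fun j => ((Pi.single i (1 : ℝ) : n → ℝ) j : ℂ)) * Vᴴ) V
      (Pi.single i (1 : ℝ)) := ⟨hz.uni, rfl⟩
  have h1 := h _ (isDiag_psd hP fun j => by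
    by_cases hj : j = i
    · subst hj; simp
    · simp [hj])
  rw [isDiag_tr (isDiag_mul hP hz), Finset.sum_eq_single i (fun j _ hj => by simp [hj])
    (by simp)] at h1
  simpa using h1

theorem lyapunov_tr {H : Matrix n n ℂ} (hH : H.IsHermitian) {x0 x1 : ℝ} {θ : ℝ → ℝ}
    (hθ : Continuous θ) (hθ0 : ∀ x, 0 ≤ θ x) {Z N : ℝ → Matrix n n ℂ}
    (hN : ∀ x, (N x).PosSemidef) (hZc : ContinuousOn Z (Icc x0 x1))
    (hZ : ∀ x ∈ Ioo x0 x1, HasDerivAt Z (θ x • (N x - H * Z x - Z x * H)) x)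
    {P : Matrix n n ℂ} (hP : P.PosSemidef) {y : ℝ} (hy : y ∈ Icc x0 x1) :
    (Z x0 = 0 → 0 ≤ tr (P * Z y)) ∧ (Z x1 = 0 → tr (P * Z y) ≤ 0) := by
  obtain ⟨U, h, hU⟩ := exists_isDiag hH
  set τ : ℝ → ℝ := fun x => ∫ t in y..x, θ t
  have hτ : ∀ x, HasDerivAt τ (θ x) x := fun x => (hθ.integral_hasStrictDerivAt y x).hasDerivAt
  set F : ℝ → Matrix n n ℂ := fun x => cfc (fun u : ℝ => Real.exp (τ x * u)) H
  have hFd : ∀ x, IsDiag (F x) U fun i => Real.exp (τ x * h i) := fun x => isDiag_cfc hU _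
  have hF : ∀ x, HasDerivAt F (θ x • (H * F x)) x := fun x => by
    have := hasDerivAt_cfc_fun hU (f := fun t u => Real.exp (τ t * u))
      (f' := fun u => Real.exp (τ x * u) * (θ x * u)) (x := x)
      fun i => ((hτ x).mul_const (h i)).exp
    convert this using 1
    exact isDiag_eq_of (isDiag_smul (isDiag_mul hU (hFd x)) _) (isDiag_cfc hU _) fun i => by ring
  have hcomm : ∀ x, H * F x = F x * H := fun x =>
    isDiag_eq_of (isDiag_mul hU (hFd x)) (isDiag_mul (hFd x) hU) fun i => by ring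
  have hFy : F y = 1 := isDiag_eq_of (hFd y) (isDiag_one hU.uni) fun i => by simp [τ]
  have hFc : Continuous F := continuous_iff_continuousAt.2 fun x => (hF x).continuousAt
  set φ : ℝ → ℝ := fun x => tr (P * (F x * Z x * F x))
  have hφ : ∀ x ∈ Ioo x0 x1, HasDerivAt φ (θ x * tr (F x * P * F x * N x)) x := fun x hx => by
    have := HasDerivAt.tr' (HasDerivAt.const_matmul P
      (HasDerivAt.matmul (HasDerivAt.matmul (hF x) (hZ x hx)) (hF x)))
    convert this using 1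
    have e : (θ x • (H * F x) * Z x + F x * θ x • (N x - H * Z x - Z x * H)) * F x +
        F x * Z x * θ x • (H * F x) = θ x • (F x * N x * F x) := by
      rw [hcomm x]
      nth_rewrite 2 [← hcomm x]
      simp only [Matrix.smul_mul, Matrix.mul_smul, Matrix.add_mul, Matrix.mul_sub, Matrix.sub_mul,
        Matrix.mul_assoc, smul_sub]
      abel
    rw [e, Matrix.mul_smul, tr_smul]
    congr 1
    rw [Matrix.mul_assoc, Matrix.mul_assoc, tr_mul_comm]
    simp only [Matrix.mul_assoc]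
  have hmono : MonotoneOn φ (Icc x0 x1) := by
    refine monotoneOn_of_deriv_nonneg (convex_Icc _ _) ?_ ?_ ?_
    · exact ContinuousOn.tr' (continuousOn_const.mul ((hFc.continuousOn.mul hZc).mul
        hFc.continuousOn))
    · rw [interior_Icc]
      exact fun x hx => (hφ x hx).differentiableAt.differentiableWithinAt
    · rw [interior_Icc]
      intro x hx
      rw [(hφ x hx).deriv]
      refine mul_nonneg (hθ0 x) (tr_mul_nonneg ?_ (hN x))
      have := hP.conjTranspose_mul_mul_same (F x)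
      rwa [(hFd x).isHermitian.eq] at this
  have hx : x0 ≤ x1 := hy.1.trans hy.2
  have e : φ y = tr (P * Z y) := by simp [φ, hFy]
  constructor
  · intro h0
    have := hmono (left_mem_Icc.2 hx) hy hy.1
    rw [e] at this
    simpa [φ, h0] using this
  · intro h1
    have := hmono hy (right_mem_Icc.2 hx) hy.2
    rw [e] at this
    simpa [φ, h1] using this

/-- The cut-off: `1` on `(-∞, R]`, `0` on `[R + 1, ∞)`. -/
noncomputable def cut (R t : ℝ) : ℝ := max 0 (min 1 (R + 1 - t))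

theorem cut_nonneg (R t : ℝ) : 0 ≤ cut R t := le_max_left _ _

theorem cut_le_one (R t : ℝ) : cut R t ≤ 1 := max_le zero_le_one (min_le_left _ _)

theorem cut_eq_one {R t : ℝ} (h : t ≤ R) : cut R t = 1 := by
  unfold cut; rw [min_eq_left (by linarith), max_eq_right zero_le_one]

theorem cut_eq_zero {R t : ℝ} (h : R + 1 ≤ t) : cut R t = 0 :=
  max_eq_left ((min_le_right _ _).trans (by linarith))

theorem continuous_cut (R : ℝ) : Continuous (cut R) := by unfold cut; fun_prop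

theorem cut_lip (R s t : ℝ) : |cut R s - cut R t| ≤ |s - t| := by
  unfold cut
  refine (abs_max_sub_max_le_max _ _ _ _).trans ?_
  rw [sub_self, abs_zero, max_eq_right (abs_nonneg _)]
  refine (abs_min_sub_min_le_max _ _ _ _).trans ?_
  rw [sub_self, abs_zero, max_eq_right (abs_nonneg _), abs_sub_comm s t]
  exact le_of_eq (by congr 1; ring)

/-- The Hermitian part. -/
noncomputable def hp (M : Matrix n n ℂ) : Matrix n n ℂ := (1 / 2 : ℝ) • (M + Mᴴ)

theorem hp_herm (M : Matrix n n ℂ) : (hp M).IsHermitian :=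
  herm_smul (isHermitian_add_transpose_self M) _

theorem hp_eq {M : Matrix n n ℂ} (h : M.IsHermitian) : hp M = M := by
  rw [hp, h.eq, ← two_smul ℝ M, smul_smul]; simp

theorem norm_hp_le (M : Matrix n n ℂ) : ‖hp M‖ ≤ ‖M‖ := by
  have := norm_add_le M Mᴴ
  rw [norm_ct] at this
  rw [hp, norm_smul, Real.norm_eq_abs, abs_of_pos (by norm_num)]
  linarith

theorem hp_sub (M N : Matrix n n ℂ) : hp M - hp N = hp (M - N) := by
  simp only [hp, conjTranspose_sub, ← smul_sub]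
  congr 1; abel

/-- The cut-off Riccati vector field. -/
noncomputable def vf (R : ℝ) (K V M : Matrix n n ℂ) : Matrix n n ℂ :=
  (cut R ‖K‖ * cut R ‖M‖) • (K * K - hp M * hp M - V)

theorem vf_herm (R : ℝ) {K V : Matrix n n ℂ} (hK : K.IsHermitian) (hV : V.IsHermitian)
    (M : Matrix n n ℂ) : (vf R K V M).IsHermitian :=
  herm_smul (((psd_mul_self hK).1.sub (psd_mul_self (hp_herm M)).1).sub hV) _

theorem norm_inner_le (K V M : Matrix n n ℂ) :
    ‖K * K - hp M * hp M - V‖ ≤ ‖K‖ ^ 2 + ‖M‖ ^ 2 + ‖V‖ := by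
  have h1 := norm_sub_le (K * K - hp M * hp M) V
  have h2 := norm_sub_le (K * K) (hp M * hp M)
  have h3 := norm_mul_le' K K
  have h4 := norm_mul_le' (hp M) (hp M)
  have h5 := mul_self_le_mul_self (norm_nonneg _) (norm_hp_le M)
  nlinarith

theorem norm_vf_le {R : ℝ} (K V M : Matrix n n ℂ) :
    ‖vf R K V M‖ ≤ 2 * (R + 1) ^ 2 + ‖V‖ := by
  by_cases h1 : R + 1 ≤ ‖K‖
  · simp only [vf, cut_eq_zero h1, zero_mul, zero_smul, norm_zero]; positivity
  by_cases h2 : R + 1 ≤ ‖M‖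
  · simp only [vf, cut_eq_zero h2, mul_zero, zero_smul, norm_zero]; positivity
  push Not at h1 h2
  have h3 := norm_inner_le K V M
  have h4 : cut R ‖K‖ * cut R ‖M‖ ≤ 1 :=
    mul_le_one₀ (cut_le_one _ _) (cut_nonneg _ _) (cut_le_one _ _)
  rw [vf, norm_smul, Real.norm_eq_abs, abs_of_nonneg (mul_nonneg (cut_nonneg _ _) (cut_nonneg _ _))]
  have h5 := pow_le_pow_left₀ (norm_nonneg _) h1.le 2
  have h6 := pow_le_pow_left₀ (norm_nonneg _) h2.le 2
  refine (mul_le_of_le_one_left (norm_nonneg _) h4).trans (by linarith)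

theorem vf_sub_le {R ρ σ : ℝ} {K V M N : Matrix n n ℂ} (hV : ‖V‖ ≤ σ) (hM : ‖M‖ ≤ ρ)
    (hN : ‖N‖ ≤ ρ) :
    ‖vf R K V M - vf R K V N‖ ≤ (‖K‖ ^ 2 + ρ ^ 2 + σ + 2 * ρ) * ‖M - N‖ := by
  have e : vf R K V M - vf R K V N =
      (cut R ‖K‖ * (cut R ‖M‖ - cut R ‖N‖)) • (K * K - hp M * hp M - V) -
        (cut R ‖K‖ * cut R ‖N‖) • (hp (M - N) * hp M + hp N * hp (M - N)) := by
    simp only [vf, ← hp_sub, Matrix.sub_mul, mul_sub, sub_smul, smul_sub, smul_add]
    abel
  have c1 : |cut R ‖K‖ * (cut R ‖M‖ - cut R ‖N‖)| ≤ ‖M - N‖ := by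
    rw [abs_mul, abs_of_nonneg (cut_nonneg _ _)]
    exact (mul_le_of_le_one_left (abs_nonneg _) (cut_le_one _ _)).trans
      ((cut_lip _ _ _).trans (abs_norm_sub_norm_le _ _))
  have c2 : |cut R ‖K‖ * cut R ‖N‖| ≤ 1 := by
    rw [abs_of_nonneg (mul_nonneg (cut_nonneg _ _) (cut_nonneg _ _))]
    exact mul_le_one₀ (cut_le_one _ _) (cut_nonneg _ _) (cut_le_one _ _)
  have c3 : ‖K * K - hp M * hp M - V‖ ≤ ‖K‖ ^ 2 + ρ ^ 2 + σ := by
    have := norm_inner_le K V M
    have := pow_le_pow_left₀ (norm_nonneg _) hM 2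
    linarith
  have c4 : ‖hp (M - N) * hp M + hp N * hp (M - N)‖ ≤ 2 * ρ * ‖M - N‖ := by
    have a1 := (norm_mul_le' (hp (M - N)) (hp M)).trans (mul_le_mul (norm_hp_le _)
      ((norm_hp_le _).trans hM) (norm_nonneg _) (norm_nonneg _))
    have a2 := (norm_mul_le' (hp N) (hp (M - N))).trans (mul_le_mul ((norm_hp_le _).trans hN)
      (norm_hp_le _) (norm_nonneg _) ((norm_nonneg _).trans hN))
    have := norm_add_le (hp (M - N) * hp M) (hp N * hp (M - N))
    linarith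
  rw [e]
  refine (norm_sub_le _ _).trans ?_
  rw [norm_smul, norm_smul, Real.norm_eq_abs, Real.norm_eq_abs]
  have d1 := mul_le_mul c1 c3 (norm_nonneg _) (norm_nonneg _)
  have d2 := mul_le_mul c2 c4 (norm_nonneg _) zero_le_one
  nlinarith

theorem isClosed_psd : IsClosed {A : Matrix n n ℂ | A.PosSemidef} := by
  have : {A : Matrix n n ℂ | A.PosSemidef} =
      {A : Matrix n n ℂ | Aᴴ = A} ∩ ⋂ P : {P : Matrix n n ℂ // P.PosSemidef},
        {A : Matrix n n ℂ | 0 ≤ tr (P.1 * A)} := by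
    ext A
    simp only [mem_ofPred_eq, mem_inter_iff, mem_iInter, Subtype.forall]
    exact ⟨fun h => ⟨h.1, fun P hP => tr_mul_nonneg hP h⟩, fun h => psd_of_tr h.1 h.2⟩
  rw [this]
  exact (isClosed_eq continuous_id.matrix_conjTranspose continuous_id).inter
    (isClosed_iInter fun P => isClosed_le continuous_const
      (Continuous.tr' (continuous_const.mul continuous_id)))

theorem flow_matrix {R x0 x1 σ0 : ℝ} (hx : x0 ≤ x1) {Vf : Matrix n n ℂ → ℝ → Matrix n n ℂ}
    (hc : ContinuousOn (fun z : Matrix n n ℂ × ℝ => Vf z.1 z.2) ({K | K.PosSemidef} ×ˢ univ))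
    (hb : ∀ K : Matrix n n ℂ, K.PosSemidef → ∀ x, ‖Vf K x‖ ≤ σ0) :
    ∃ Y : {K : Matrix n n ℂ // K.PosSemidef} → ℝ → Matrix n n ℂ,
      (∀ K, Y K x0 = K.1 ∧ ∀ x ∈ Icc x0 x1,
        HasDerivWithinAt (Y K) (vf R K.1 (Vf K.1 x) (Y K x)) (Icc x0 x1) x) ∧
      Continuous fun K => Y K x1 := by
  refine exists_flow (E := Matrix n n ℂ) (P := {K : Matrix n n ℂ // K.PosSemidef})
    (V := fun K t M => vf R K.1 (Vf K.1 t) M)
    (y0 := fun K => K.1) (L := 2 * (R + 1) ^ 2 + σ0) hx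
    (fun K t M => (norm_vf_le _ _ _).trans (by linarith [hb K.1 K.2 t])) ?_ ?_
    continuous_subtype_val
  · intro K ρ
    refine ⟨Real.toNNReal (‖K.1‖ ^ 2 + ρ ^ 2 + σ0 + 2 * ρ), fun t _ => ?_⟩
    refine LipschitzOnWith.of_dist_le' fun M hM N hN => ?_
    rw [dist_eq_norm, dist_eq_norm]
    exact vf_sub_le (hb K.1 K.2 t) (by simpa using hM) (by simpa using hN)
  · have h1 : Continuous fun z : {K : Matrix n n ℂ // K.PosSemidef} × ℝ × Matrix n n ℂ =>
        Vf z.1.1 z.2.1 :=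
      hc.comp_continuous (f := fun z : {K : Matrix n n ℂ // K.PosSemidef} × ℝ × Matrix n n ℂ =>
        (z.1.1, z.2.1)) (by fun_prop) fun z => ⟨z.1.2, trivial⟩
    have h2 : Continuous fun z : {K : Matrix n n ℂ // K.PosSemidef} × ℝ × Matrix n n ℂ =>
        (z.1.1 : Matrix n n ℂ) := by fun_prop
    have h3 : Continuous fun z : {K : Matrix n n ℂ // K.PosSemidef} × ℝ × Matrix n n ℂ =>
        z.2.2 := by fun_prop
    have h4 : Continuous fun z : {K : Matrix n n ℂ // K.PosSemidef} × ℝ × Matrix n n ℂ =>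
        hp z.2.2 := (h3.add h3.matrix_conjTranspose).const_smul (1 / 2 : ℝ)
    have h5 : Continuous fun A : Matrix n n ℂ => ‖A‖ := continuous_norm
    exact (((continuous_cut R).comp (h5.comp h2)).mul ((continuous_cut R).comp (h5.comp h3))).smul
      (((h2.mul h2).sub (h4.mul h4)).sub h1)

theorem herm_of_deriv {x0 x1 : ℝ} {M M' : ℝ → Matrix n n ℂ} (hc : ContinuousOn M (Icc x0 x1))
    (hM : ∀ x ∈ Ioo x0 x1, HasDerivAt M (M' x) x) (hM' : ∀ x, (M' x).IsHermitian)
    (h0 : (M x0).IsHermitian) : ∀ x ∈ Icc x0 x1, (M x).IsHermitian := by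
  intro x hx
  ext i j
  have hd : ∀ y ∈ Ioo x0 x1, HasDerivAt (fun t => ((M t)ᴴ - M t) i j) 0 y := fun y hy => by
    have := (hasDerivAt_matrix.1 (HasDerivAt.ct (hM y hy)) i j).sub
      (hasDerivAt_matrix.1 (hM y hy) i j)
    rw [(hM' y).eq, sub_self] at this
    exact this
  have hcc : ContinuousOn (fun t => ((M t)ᴴ - M t) i j) (Icc x0 x1) := by
    have h1 : Continuous fun A : Matrix n n ℂ => (Aᴴ - A) i j :=
      (continuous_id.matrix_conjTranspose.sub continuous_id).matrix_elem i j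
    exact h1.comp_continuousOn hc
  have := intervalIntegral.integral_eq_sub_of_hasDerivAt_of_le hx.1
    (hcc.mono (Icc_subset_Icc le_rfl hx.2))
    (fun y hy => hd y ⟨hy.1, hy.2.trans_le hx.2⟩) (f' := fun _ => 0) (by simp)
  rw [h0.eq] at this
  simpa [sub_eq_zero] using this.symm

/-- Existence of a fully critical Riccati solution. -/
theorem exists_riccati {x0 x1 σ0 : ℝ} (hx : x0 ≤ x1) {Vf : Matrix n n ℂ → ℝ → Matrix n n ℂ}
    (hc : ContinuousOn (fun z : Matrix n n ℂ × ℝ => Vf z.1 z.2) ({K | K.PosSemidef} ×ˢ univ))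
    (hp' : ∀ K : Matrix n n ℂ, K.PosSemidef → ∀ x, (Vf K x).PosSemidef)
    (hb : ∀ K : Matrix n n ℂ, K.PosSemidef → ∀ x, tr (Vf K x) ≤ σ0)
    (hz : ∀ K : Matrix n n ℂ, K.PosSemidef → ∀ x, x ≤ x0 ∨ x1 ≤ x → Vf K x = 0) :
    ∃ (K : Matrix n n ℂ) (S : ℝ → Matrix n n ℂ), (∀ x, Sand K (S x)) ∧
      (∀ x, HasDerivAt S (K * K - S x * S x - Vf K x) x) ∧
      (∀ x, x ≤ x0 → S x = K) ∧ (∀ x, x1 ≤ x → S x = -K) := by
  have hσ : 0 ≤ σ0 := (tr_nonneg (hp' 0 PosSemidef.zero 0)).trans (hb 0 PosSemidef.zero 0)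
  have hb' : ∀ K : Matrix n n ℂ, K.PosSemidef → ∀ x, ‖Vf K x‖ ≤ σ0 := fun K hK x =>
    (norm_le_tr (hp' K hK x)).trans (hb K hK x)
  set R := σ0 * (x1 - x0) / 2
  obtain ⟨Y, hY, hYc⟩ := flow_matrix (R := R) hx hc hb'
  set cl : ℝ → ℝ := fun y => max x0 (min x1 y)
  have hcl : ∀ y, cl y ∈ Icc x0 x1 := fun y => ⟨le_max_left _ _, max_le hx (min_le_left _ _)⟩
  have hcl' : ∀ y ∈ Icc x0 x1, cl y = y := fun y hy => by
    simp only [cl]; rw [min_eq_right hy.2, max_eq_right hy.1]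
  have hYcont : ∀ K, ContinuousOn (Y K) (Icc x0 x1) := fun K x hx =>
    ((hY K).2 x hx).continuousWithinAt
  have hYd : ∀ K, ∀ x ∈ Ioo x0 x1, HasDerivAt (Y K) (vf R K.1 (Vf K.1 x) (Y K x)) x :=
    fun K x hx => ((hY K).2 x (Ioo_subset_Icc_self hx)).hasDerivAt (Icc_mem_nhds hx.1 hx.2)
  have hYh : ∀ K, ∀ x ∈ Icc x0 x1, (Y K x).IsHermitian := fun K =>
    herm_of_deriv (hYcont K) (hYd K) (fun x => vf_herm R K.2.1 (hp' K.1 K.2 x).1 _)
      (by rw [(hY K).1]; exact K.2.1)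
  set θ : {K : Matrix n n ℂ // K.PosSemidef} → ℝ → ℝ :=
    fun K x => cut R ‖K.1‖ * cut R ‖Y K (cl x)‖
  have hθc : ∀ K, Continuous (θ K) := fun K => by
    have h5 : Continuous fun A : Matrix n n ℂ => ‖A‖ := continuous_norm
    exact continuous_const.mul ((continuous_cut R).comp (h5.comp
      ((hYcont K).comp_continuous (by fun_prop) hcl)))
  have hθ0 : ∀ K x, 0 ≤ θ K x := fun K x => mul_nonneg (cut_nonneg _ _) (cut_nonneg _ _)
  have hθ1 : ∀ K x, θ K x ≤ 1 := fun K x =>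
    mul_le_one₀ (cut_le_one _ _) (cut_nonneg _ _) (cut_le_one _ _)
  have hvf : ∀ K, ∀ x ∈ Icc x0 x1, vf R K.1 (Vf K.1 x) (Y K x) =
      θ K x • (K.1 * K.1 - Y K x * Y K x - Vf K.1 x) := fun K x hx => by
    simp only [vf, θ, hcl' x hx, hp_eq (hYh K x hx)]
  have hup : ∀ K, ∀ x ∈ Icc x0 x1, (K.1 - Y K x).PosSemidef := by
    intro K x hx
    refine psd_of_tr (K.2.1.sub (hYh K x hx)) fun P hP => ?_
    refine (lyapunov_tr K.2.1 (hθc K) (hθ0 K) (Z := fun y => K.1 - Y K y)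
      (N := fun y => Vf K.1 y + (K.1 - Y K (cl y)) * (K.1 - Y K (cl y)))
      (fun y => (hp' K.1 K.2 y).add (psd_mul_self (K.2.1.sub (hYh K _ (hcl y)))))
      (continuousOn_const.sub (hYcont K)) (fun y hy => ?_) hP hx).1 (by simp [(hY K).1])
    refine ((hYd K y hy).const_sub K.1).congr_deriv (Eq.symm ?_)
    rw [hvf K y (Ioo_subset_Icc_self hy), hcl' y (Ioo_subset_Icc_self hy), ← smul_neg]
    congr 1
    simp only [Matrix.mul_sub, Matrix.sub_mul]
    abel
  set ρ := (2 * (R + 1) ^ 2 + σ0) * (x1 - x0)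
  set C : Set (Matrix n n ℂ) := {K | K.PosSemidef} ∩ Metric.closedBall 0 ρ
  have hρ : 0 ≤ ρ := mul_nonneg (by positivity) (sub_nonneg.2 hx)
  classical
  set T : Matrix n n ℂ → Matrix n n ℂ := fun K =>
    if h : K.PosSemidef then (1 / 2 : ℝ) • (K - Y ⟨K, h⟩ x1) else 0
  obtain ⟨K, hK, hfix⟩ := Crest.Agent.Lib.Brouwer.exists_fixedPoint_of_isCompact_convex
    (W := Matrix n n ℂ) (K := C) ((isCompact_closedBall _ _).inter_left isClosed_psd)
    (Convex.inter (fun A hA B hB a b ha hb _ => (psd_smul hA ha).add (psd_smul hB hb))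
      (convex_closedBall _ _)) ⟨0, PosSemidef.zero, by simpa using hρ⟩ T (by
      refine ContinuousOn.mono (s := {K | K.PosSemidef}) ?_ inter_subset_left
      rw [continuousOn_iff_continuous_domRestrict]
      have : domRestrict {K : Matrix n n ℂ | K.PosSemidef} T =
          fun K : {K : Matrix n n ℂ // K.PosSemidef} => (1 / 2 : ℝ) • (K.1 - Y K x1) := by
        funext K
        exact dif_pos K.2
      rw [this]
      exact (continuous_subtype_val.sub hYc).const_smul (1 / 2 : ℝ)) (by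
      intro K hK
      have hT : T K = (1 / 2 : ℝ) • (K - Y ⟨K, hK.1⟩ x1) := dif_pos hK.1
      rw [hT]
      refine ⟨psd_smul (hup ⟨K, hK.1⟩ x1 (right_mem_Icc.2 hx)) (by norm_num), ?_⟩
      have h1 := norm_image_sub_le_of_norm_deriv_right_le_segment (E := Matrix n n ℂ)
        (hYcont ⟨K, hK.1⟩) (C := 2 * (R + 1) ^ 2 + σ0)
        (fun t ht => ((hY ⟨K, hK.1⟩).2 t (Ico_subset_Icc_self ht)).mono_of_mem_nhdsWithin
          (Icc_mem_nhdsGE_of_mem ht))
        (fun t _ => (norm_vf_le _ _ _).trans (by linarith [hb' K hK.1 t])) x1 (right_mem_Icc.2 hx)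
      rw [(hY _).1, norm_sub_rev] at h1
      rw [mem_closedBall_zero_iff, norm_smul, Real.norm_eq_abs, abs_of_pos (by norm_num)]
      have : ‖K - Y ⟨K, hK.1⟩ x1‖ ≤ ρ := h1
      linarith)
  have hK' : K.PosSemidef := hK.1
  set M := Y ⟨K, hK'⟩
  have hM0 : M x0 = K := (hY ⟨K, hK'⟩).1
  have hM1 : M x1 = -K := by
    have hT : T K = (1 / 2 : ℝ) • (K - M x1) := dif_pos hK'
    rw [hT] at hfix
    have h2 : K - M x1 = K + K := by
      rw [← two_smul ℝ K]
      conv_rhs => rw [← hfix, smul_smul]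
      simp
    rw [sub_eq_iff_eq_add, add_assoc, left_eq_add, add_eq_zero_iff_neg_eq] at h2
    exact h2.symm
  have hlo : ∀ x ∈ Icc x0 x1, (K + M x).PosSemidef := by
    intro x hx
    refine psd_of_tr (hK'.1.add (hYh ⟨K, hK'⟩ x hx)) fun P hP => ?_
    have := (lyapunov_tr hK'.1.neg (hθc ⟨K, hK'⟩) (hθ0 ⟨K, hK'⟩) (Z := fun y => -K - M y)
      (N := fun y => Vf K y + (K + M (cl y)) * (K + M (cl y)))
      (fun y => (hp' K hK' y).add (psd_mul_self (hK'.1.add (hYh ⟨K, hK'⟩ _ (hcl y)))))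
      (continuousOn_const.sub (hYcont ⟨K, hK'⟩)) (fun y hy => ?_) hP hx).2 (by simp [hM1])
    · have e : P * (K + M x) = -(P * (-K - M x)) := by
        rw [← Matrix.mul_neg]; congr 1; abel
      rw [e, tr_neg]
      linarith
    refine ((hYd ⟨K, hK'⟩ y hy).const_sub (-K)).congr_deriv (Eq.symm ?_)
    rw [hvf ⟨K, hK'⟩ y (Ioo_subset_Icc_self hy), hcl' y (Ioo_subset_Icc_self hy), ← smul_neg]
    congr 1
    simp only [Matrix.mul_sub, Matrix.sub_mul, Matrix.mul_add, Matrix.add_mul, Matrix.neg_mul,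
      Matrix.mul_neg, M]
    abel
  have hsand : ∀ x ∈ Icc x0 x1, Sand K (M x) := fun x hx =>
    ⟨hK', hYh ⟨K, hK'⟩ x hx, hup ⟨K, hK'⟩ x hx, hlo x hx⟩
  have htr : tr K ≤ R := by
    have hd : ∀ y ∈ Ioo x0 x1, HasDerivAt (fun t => tr (M t) + σ0 * t)
        (tr (vf R K (Vf K y) (M y)) + σ0 * 1) y := fun y hy =>
      (HasDerivAt.tr' (hYd ⟨K, hK'⟩ y hy)).add ((hasDerivAt_id y).const_mul σ0)
    have hmono : MonotoneOn (fun t => tr (M t) + σ0 * t) (Icc x0 x1) := by
      refine monotoneOn_of_deriv_nonneg (convex_Icc _ _)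
        ((ContinuousOn.tr' (hYcont ⟨K, hK'⟩)).add (by fun_prop)) ?_ ?_
      · rw [interior_Icc]
        exact fun y hy => (hd y hy).differentiableAt.differentiableWithinAt
      · rw [interior_Icc]
        intro y hy
        rw [(hd y hy).deriv, hvf ⟨K, hK'⟩ y (Ioo_subset_Icc_self hy), tr_smul, tr_sub]
        have h1 := (hsand y (Ioo_subset_Icc_self hy)).tr_D_nonneg
        have h2 := hb K hK' y
        have h3 := tr_nonneg (hp' K hK' y)
        have h4 := hθ0 ⟨K, hK'⟩ y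
        have h5 := hθ1 ⟨K, hK'⟩ y
        have h6 := mul_nonneg h4 h1
        have h7 := mul_le_of_le_one_left h3 h5
        simp only [M] at h1 h6 ⊢
        nlinarith
    have := hmono (left_mem_Icc.2 hx) (right_mem_Icc.2 hx) hx
    simp only [hM0, hM1, tr_neg] at this
    simp only [R]
    linarith
  have hKn : ‖K‖ ≤ R := (norm_le_tr hK').trans htr
  have hθ : ∀ x ∈ Icc x0 x1, θ ⟨K, hK'⟩ x = 1 := fun x hx => by
    have h1 := (hsand x hx).tr_D_nonneg
    rw [tr_sub, tr_mul_self_herm hK'.1, tr_mul_self_herm (hsand x hx).herm] at h1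
    have h2 : ‖M x‖ ≤ ‖K‖ := le_of_sq_le' (by linarith) (norm_nonneg _)
    simp only [θ, hcl' x hx]
    rw [cut_eq_one hKn, cut_eq_one (h2.trans hKn), one_mul]
  have hD : ∀ x ∈ Icc x0 x1,
      HasDerivWithinAt M (K * K - M x * M x - Vf K x) (Icc x0 x1) x := fun x hx => by
    have := (hY ⟨K, hK'⟩).2 x hx
    rwa [hvf ⟨K, hK'⟩ x hx, hθ x hx, one_smul] at this
  refine ⟨K, fun x => M (cl x), fun x => hsand _ (hcl x), fun x => ?_, fun x h => ?_,
    fun x h => ?_⟩
  · have := hasDerivAt_clamp (E := Matrix n n ℂ) hx hD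
      (by simp [hM0, hz K hK' x0 (Or.inl le_rfl)]) (by simp [hM1, hz K hK' x1 (Or.inr le_rfl)]) x
    have e : Vf K (cl x) = Vf K x := by
      by_cases h : x ∈ Icc x0 x1
      · rw [hcl' x h]
      · rw [mem_Icc, not_and_or, not_le, not_le] at h
        rw [hz K hK' x (h.imp le_of_lt le_of_lt), hz K hK']
        rcases h with h | h
        · exact Or.inl (max_le le_rfl ((min_le_right _ _).trans h.le))
        · exact Or.inr (le_max_of_le_right (le_min le_rfl h.le))
    rw [← e]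
    exact this
  · simp only [cl]
    rw [max_eq_left ((min_le_right _ _).trans h), hM0]
  · simp only [cl]
    rw [min_eq_left h, max_eq_right hx, hM1]

end Crest.Agent.Lib.Riccati
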